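import Vale.Agent.Lib.P086.GroupAlgebra

/-!
# P086: no spatial isomorphism of free group factors of different ranks that sends the
canonical generators into the group algebra

`b₁`, `b₂` are Hilbert bases indexed by the free groups `FreeGroup α`, `FreeGroup β`, i.e.
unitary identifications `E₁ ≅ ℓ²(F_α)`, `E₂ ≅ ℓ²(F_β)`; `groupVN b` is `L(F) = λ(F)''`.
If a unitary `U : E₁ → E₂` conjugates `L(F_α)` onto `L(F_β)` and sends the translation `λ(a)` of
every free generator `a` to a finite linear combination of translations `λ(h)`, `h ∈ F_β`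
(an element of the group algebra `ℂ[F_β] ⊆ L(F_β)`), then `α` and `β` have the same cardinality.
The proof uses that free groups have unique products (via Nielsen-Schreier), hence that the
units of `ℂ[F_β]` are trivial.
-/

namespace Vale.Agent.Results.P086.AlgebraicIso

open Vale.Agent.Lib.P086

theorem result {α β : Type*} {E₁ E₂ : Type*}
    [NormedAddCommGroup E₁] [InnerProductSpace ℂ E₁] [CompleteSpace E₁]
    [NormedAddCommGroup E₂] [InnerProductSpace ℂ E₂] [CompleteSpace E₂]
    (b₁ : HilbertBasis (FreeGroup α) ℂ E₁) (b₂ : HilbertBasis (FreeGroup β) ℂ E₂)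
    (U : E₁ ≃ₗᵢ[ℂ] E₂)
    (hU : ∀ T : E₁ →L[ℂ] E₁, T ∈ groupVN b₁ ↔ conj U T ∈ groupVN b₂)
    (hgen : ∀ (a : α) (T : E₁ →L[ℂ] E₁), IsLeftTranslation b₁ (FreeGroup.of a) T →
      conj U T ∈ Submodule.span ℂ
        {S : E₂ →L[ℂ] E₂ | ∃ h : FreeGroup β, IsLeftTranslation b₂ h S}) :
    Nonempty (α ≃ β) := by
  have : TwoUniqueProds (FreeGroup β) := twoUniqueProds_freeGroup β
  obtain ⟨e⟩ := nonempty_mulEquiv_of_span b₁ b₂ U hU (Set.range FreeGroup.of)
    (FreeGroup.closure_range_of α)
    (by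
      rintro _ ⟨a, rfl⟩
      exact hgen a _ (isLeftTranslation_trans b₁ (FreeGroup.of a)))
  exact ⟨Equiv.ofFreeGroupEquiv e⟩

end Vale.Agent.Results.P086.AlgebraicIso
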