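import Vale.Agent.Lib.P086.Spatial

/-!
# P086: no group-like spatial isomorphism between free group factors of different ranks

`b₁`, `b₂` are Hilbert bases indexed by the free groups `FreeGroup α`, `FreeGroup β`, i.e.
unitary identifications `E₁ ≅ ℓ²(F_α)`, `E₂ ≅ ℓ²(F_β)`; `groupVN b` is `L(F) = λ(F)''`.
If a unitary `U : E₁ → E₂` conjugates `L(F_α)` onto `L(F_β)` and sends the translation `λ(a)` of
every free generator `a` to a scalar multiple of a translation `λ(h)`, then `α` and `β` have the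
same cardinality.
-/

namespace Vale.Agent.Results.P086.GroupLikeIso

open Vale.Agent.Lib.P086

theorem result {α β : Type*} {E₁ E₂ : Type*}
    [NormedAddCommGroup E₁] [InnerProductSpace ℂ E₁] [CompleteSpace E₁]
    [NormedAddCommGroup E₂] [InnerProductSpace ℂ E₂] [CompleteSpace E₂]
    (b₁ : HilbertBasis (FreeGroup α) ℂ E₁) (b₂ : HilbertBasis (FreeGroup β) ℂ E₂)
    (U : E₁ ≃ₗᵢ[ℂ] E₂)
    (hU : ∀ T : E₁ →L[ℂ] E₁, T ∈ groupVN b₁ ↔ conj U T ∈ groupVN b₂)
    (hgen : ∀ (a : α) (T : E₁ →L[ℂ] E₁), IsLeftTranslation b₁ (FreeGroup.of a) T →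
      ∃ (c : ℂ) (h : FreeGroup β) (S : E₂ →L[ℂ] E₂),
        IsLeftTranslation b₂ h S ∧ conj U T = c • S) :
    Nonempty (α ≃ β) := by
  obtain ⟨e⟩ := nonempty_mulEquiv b₁ b₂ U hU (Set.range FreeGroup.of) (FreeGroup.closure_range_of α)
    (by
      rintro _ ⟨a, rfl⟩
      obtain ⟨c, h, S, hS, hc⟩ := hgen a _ (isLeftTranslation_trans b₁ (FreeGroup.of a))
      exact ⟨c, h, by rw [hc, hS.eq_trans]⟩)
  exact ⟨Equiv.ofFreeGroupEquiv e⟩

end Vale.Agent.Results.P086.GroupLikeIso
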